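import Vale.Agent.P327.Lit

namespace Vale.Agent.Results.P327.AutSets

open Vale.Agent.P327

theorem result (π : Set (Set ℕ) → Set (Set ℕ)) (hπ : Set.BijOn π Degrees Degrees)
    (hle : ∀ a ∈ Degrees, ∀ b ∈ Degrees, (DegLE a b ↔ DegLE (π a) (π b))) :
    ∀ a ∈ Degrees, π a = a := by
  obtain ⟨e, he⟩ := exists_iso hπ hle
  intro a ha
  obtain ⟨d, rfl⟩ := (mem_degrees a).1 ha
  rw [he, aut_eq]

end Vale.Agent.Results.P327.AutSets
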