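import Vale.Agent.P327.Main

namespace Vale.Agent.Results.P327.BorelRigid

open Vale.Agent.P327

theorem result (π : TDeg ≃o TDeg) (F : (ℕ → Bool) → (ℕ → Bool)) (hF : Measurable F)
    (hπ : ∀ A, π (tdeg A) = tdeg (F A)) (d : TDeg) : π d = d := by
  obtain ⟨G, hG, hG2⟩ := exists_inv hπ hF
  induction d using TDeg.ind with
  | h A =>
    rw [hπ, tdeg_eq]
    refine ⟨half hG2 hG ?_, half hπ hF (hπ A)⟩
    rw [← hπ, π.symm_apply_apply]

end Vale.Agent.Results.P327.BorelRigid
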