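import Vale.Agent.P327.Rigid

namespace Vale.Agent.Results.P327.Rigid

open Vale.Agent.P327

theorem result (π : TDeg ≃o TDeg) (d : TDeg) : π d = d := by
  obtain ⟨F, hF⟩ := exists_rep π
  obtain ⟨G, hG⟩ := exists_rep π.symm
  induction d using TDeg.ind with
  | h A =>
    rw [hF, tdeg_eq]
    refine ⟨half2 hG (by simpa using hF) ?_, half2 hF hG (hF A)⟩
    rw [← hF, π.symm_apply_apply]

end Vale.Agent.Results.P327.Rigid
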